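import Mathlib

/-!
# P068: augmenting paths for two arbitrary (possibly infinite) matroids

`Arc M N J` is the exchange digraph of a common independent set `J`, `Src M J` the set of elements
that can be added to `J` in `M`.  We prove

* `cover_of_no_path`: if no element of `Src N J` can be reached from `Src M J`, then the closures
  of the two parts of `J` cover the ground set;
* `exists_augment`: if some element of `Src N J` can be reached, there is a common independent set
  with one more element.
-/

namespace Vale.Agent.Lib.P068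

open Set

variable {α : Type*}

/-- Arcs of the exchange digraph of `J`. -/
def Arc (M N : Matroid α) (J : Set α) (u v : α) : Prop :=
  (u ∈ J ∧ v ∉ J ∧ v ∈ M.E ∧ v ∉ M.closure (J \ {u})) ∨
    (u ∉ J ∧ v ∈ J ∧ u ∈ N.E ∧ u ∉ N.closure (J \ {v}))

/-- Elements that can be added to `J`. -/
def Src (M : Matroid α) (J : Set α) : Set α := {x | x ∈ M.E ∧ x ∉ M.closure J}

/-- `Reach M N J n v`: there is a walk of length `n` from `Src M J` to `v`. -/
def Reach (M N : Matroid α) (J : Set α) : ℕ → α → Prop
  | 0, v => v ∈ Src M J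
  | n + 1, v => ∃ u, Reach M N J n u ∧ Arc M N J u v

theorem not_mem_of_mem_Src {M : Matroid α} {J : Set α} (hJ : M.Indep J) {x : α}
    (hx : x ∈ Src M J) : x ∉ J :=
  fun h => hx.2 (M.mem_closure_of_mem h hJ.subset_ground)

/-- If `x` is spanned by the independent set `J` and by `J \ {y}` for all `y ∈ J ∩ R`, then it is
spanned by `J \ R`. -/
theorem mem_closure_diff {M : Matroid α} {J : Set α} (hJ : M.Indep J) (R : Set α) {x : α}
    (hx : x ∈ M.closure J) (h : ∀ y ∈ J ∩ R, x ∈ M.closure (J \ {y})) :
    x ∈ M.closure (J \ R) := by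
  set Js : Set (Set α) := insert J ((fun y => J \ {y}) '' (J ∩ R)) with hJs
  have hne : Js.Nonempty := ⟨J, mem_insert _ _⟩
  have hsub : ∀ I ∈ Js, I ⊆ J := by
    rintro I (rfl | ⟨y, -, rfl⟩)
    · exact Subset.rfl
    · exact sdiff_subset
  have hInter : ⋂₀ Js = J \ R := by
    ext e
    simp only [hJs, mem_sInter, mem_insert_iff, mem_image, forall_eq_or_imp]
    constructor
    · rintro ⟨heJ, h2⟩
      refine ⟨heJ, fun heR => ?_⟩
      have := h2 (J \ {e}) ⟨e, ⟨heJ, heR⟩, rfl⟩
      exact this.2 rfl
    · rintro ⟨heJ, heR⟩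
      refine ⟨heJ, ?_⟩
      rintro _ ⟨y, hy, rfl⟩
      refine ⟨heJ, fun hey => heR ?_⟩
      rw [mem_singleton_iff.mp hey]
      exact hy.2
  rw [← hInter, hJ.closure_sInter_eq_biInter_closure_of_forall_subset hne hsub]
  simp only [mem_iInter]
  rintro I (rfl | ⟨y, hy, rfl⟩)
  · exact hx
  · exact h y hy

/-- No augmenting path: the two parts of `J` span everything. -/
theorem cover_of_no_path (M N : Matroid α) (hE : M.E = N.E) {J : Set α} (hM : M.Indep J)
    (hN : N.Indep J) (h : ∀ n v, Reach M N J n v → v ∉ Src N J) :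
    M.closure (J \ {v | ∃ n, Reach M N J n v}) ∪ N.closure (J ∩ {v | ∃ n, Reach M N J n v}) =
      M.E := by
  set R : Set α := {v | ∃ n, Reach M N J n v} with hR
  apply Subset.antisymm
  · apply union_subset (M.closure_subset_ground _)
    rw [hE]
    exact N.closure_subset_ground _
  intro x hxE
  by_cases hxR : x ∈ R
  · right
    by_cases hxJ : x ∈ J
    · exact N.mem_closure_of_mem ⟨hxJ, hxR⟩ (inter_subset_left.trans hN.subset_ground)
    obtain ⟨n, hn⟩ := hxR
    have hxN : x ∈ N.E := hE ▸ hxE
    have hcl : x ∈ N.closure J := by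
      by_contra hc
      exact h n x hn ⟨hxN, hc⟩
    have key := mem_closure_diff hN Rᶜ hcl (by
      rintro y ⟨hyJ, hyR⟩
      by_contra hc
      exact hyR ⟨n + 1, x, hn, Or.inr ⟨hxJ, hyJ, hxN, hc⟩⟩)
    rwa [sdiff_compl] at key
  · left
    by_cases hxJ : x ∈ J
    · exact M.mem_closure_of_mem ⟨hxJ, hxR⟩ (sdiff_subset.trans hM.subset_ground)
    have hcl : x ∈ M.closure J := by
      by_contra hc
      exact hxR ⟨0, hxE, hc⟩
    refine mem_closure_diff hM R hcl ?_
    rintro y ⟨hyJ, n, hn⟩
    by_contra hc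
    exact hxR ⟨n + 1, y, hn, Or.inl ⟨hyJ, hxJ, hxE, hc⟩⟩

/-- Adding elements one at a time, each outside the closure of the previous ones. -/
theorem tri (M : Matroid α) {S : Set α} (hS : M.Indep S) (w : ℕ → α) (n : ℕ)
    (h : ∀ i < n, w i ∈ M.E ∧ w i ∉ M.closure (S ∪ w '' Iio i)) :
    M.Indep (S ∪ w '' Iio n) := by
  induction n with
  | zero => simpa using hS
  | succ n ih =>
    have h1 := ih (fun i hi => h i (Nat.lt_succ_of_lt hi))
    have h2 : w '' Iio (n + 1) = insert (w n) (w '' Iio n) := by
      ext e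
      simp only [mem_image, mem_Iio, mem_insert_iff]
      constructor
      · rintro ⟨i, hi, rfl⟩
        rcases Nat.lt_succ_iff_lt_or_eq.mp hi with h | rfl
        · exact Or.inr ⟨i, h, rfl⟩
        · exact Or.inl rfl
      · rintro (rfl | ⟨i, hi, rfl⟩)
        · exact ⟨n, Nat.lt_succ_self n, rfl⟩
        · exact ⟨i, Nat.lt_succ_of_lt hi, rfl⟩
    rw [h2, union_insert, h1.insert_indep_iff]
    exact Or.inl (h n (Nat.lt_succ_self n))

/-- The triangular exchange lemma. -/
theorem aug_indep (M : Matroid α) {J : Set α} (hJ : M.Indep J) (t : ℕ) (z y : ℕ → α)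
    (hzE : ∀ i ≤ t, z i ∈ M.E) (hlast : z t ∉ M.closure J)
    (harc : ∀ i < t, z i ∉ M.closure (J \ {y i}))
    (hno : ∀ i < t, ∀ b < i, z b ∈ M.closure (J \ {y i}))
    (hcl : ∀ b < t, z b ∈ M.closure J) :
    M.Indep ((J \ y '' Iio t) ∪ z '' Iio (t + 1)) := by
  apply tri M (hJ.subset sdiff_subset)
  intro i hi
  refine ⟨hzE i (Nat.lt_succ_iff.mp hi), ?_⟩
  rcases Nat.lt_succ_iff_lt_or_eq.mp hi with hit | rfl
  · intro hmem
    apply harc i hit
    refine M.closure_subset_closure_of_subset_closure ?_ hmem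
    apply union_subset
    · refine Subset.trans ?_ (M.subset_closure _ (sdiff_subset.trans hJ.subset_ground))
      intro e he
      refine ⟨he.1, fun hey => he.2 ⟨i, hit, ?_⟩⟩
      exact (mem_singleton_iff.mp hey).symm
    · rintro _ ⟨b, hb, rfl⟩
      exact hno i hit b hb
  · intro hmem
    apply hlast
    refine M.closure_subset_closure_of_subset_closure ?_ hmem
    apply union_subset
    · exact sdiff_subset.trans (M.subset_closure _ hJ.subset_ground)
    · rintro _ ⟨b, hb, rfl⟩
      exact hcl b hb

/-- `v` is at distance exactly `n` from `Src M J`. -/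
def IsDist (M N : Matroid α) (J : Set α) (n : ℕ) (v : α) : Prop :=
  Reach M N J n v ∧ ∀ j < n, ¬ Reach M N J j v

theorem IsDist.unique {M N : Matroid α} {J : Set α} {a b : ℕ} {v : α}
    (ha : IsDist M N J a v) (hb : IsDist M N J b v) : a = b := by
  rcases lt_trichotomy a b with h | h | h
  · exact absurd ha.1 (hb.2 a h)
  · exact h
  · exact absurd hb.1 (ha.2 b h)

theorem IsDist.le_succ {M N : Matroid α} {J : Set α} {a b : ℕ} {u v : α}
    (ha : IsDist M N J a u) (hb : IsDist M N J b v) (h : Arc M N J u v) : b ≤ a + 1 := by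
  by_contra hlt
  exact hb.2 (a + 1) (not_le.mp hlt) ⟨u, ha.1, h⟩

/-- A geodesic from `Src M J` to a vertex at distance `n`. -/
theorem exists_path (M N : Matroid α) (J : Set α) :
    ∀ (n : ℕ) (v : α), IsDist M N J n v → ∃ p : ℕ → α, p n = v ∧
      (∀ k ≤ n, IsDist M N J k (p k)) ∧ ∀ k < n, Arc M N J (p k) (p (k + 1)) := by
  intro n
  induction n with
  | zero =>
    intro v hv
    refine ⟨fun _ => v, rfl, ?_, ?_⟩
    · intro k hk
      rw [Nat.le_zero.mp hk]
      exact hv
    · intro k hk
      exact absurd hk (Nat.not_lt_zero k)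
  | succ n ih =>
    intro v hv
    obtain ⟨u, hu, huv⟩ := hv.1
    have hud : IsDist M N J n u := by
      refine ⟨hu, fun j hj hju => ?_⟩
      exact hv.2 (j + 1) (Nat.succ_lt_succ hj) ⟨u, hju, huv⟩
    obtain ⟨p, hpn, hpd, hpa⟩ := ih u hud
    refine ⟨Function.update p (n + 1) v, by simp, ?_, ?_⟩
    · intro k hk
      rcases Nat.lt_succ_iff_lt_or_eq.mp (Nat.lt_succ_of_le hk) with h | rfl
      · rw [Function.update_of_ne (Nat.ne_of_lt h)]
        exact hpd k (Nat.lt_succ_iff.mp h)
      · rw [Function.update_self]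
        exact hv
    · intro k hk
      rw [Function.update_of_ne (Nat.ne_of_lt hk)]
      rcases Nat.lt_succ_iff_lt_or_eq.mp hk with h | rfl
      · rw [Function.update_of_ne (by omega)]
        exact hpa k h
      · rw [Function.update_self, hpn]
        exact huv

theorem Reach.mem_ground {M N : Matroid α} {J : Set α} (hM : M.Indep J) {n : ℕ} {v : α}
    (h : Reach M N J n v) : v ∈ M.E := by
  cases n with
  | zero => exact h.1
  | succ n =>
    obtain ⟨u, -, hu⟩ := h
    rcases hu with ⟨-, -, h3, -⟩ | ⟨-, h2, -⟩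
    · exact h3
    · exact hM.subset_ground h2

/-- An augmenting path gives a common independent set with one more element. -/
theorem exists_augment (M N : Matroid α) (hE : M.E = N.E) {J : Set α} (hM : M.Indep J)
    (hN : N.Indep J) (h : ∃ n v, Reach M N J n v ∧ v ∈ Src N J) :
    ∃ (Y Z : Set α) (t : ℕ), Y ⊆ J ∧ Disjoint J Z ∧ Y.encard = t ∧ Z.encard = t + 1 ∧
      M.Indep ((J \ Y) ∪ Z) ∧ N.Indep ((J \ Y) ∪ Z) := by
  classical
  have hex : ∃ n, ∃ v, Reach M N J n v ∧ v ∈ Src N J := h
  obtain ⟨v, hv, hvN⟩ := Nat.find_spec hex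
  set m := Nat.find hex with hm
  have hmin : ∀ j < m, ∀ w, Reach M N J j w → w ∉ Src N J := by
    intro j hj w hw hwN
    exact Nat.find_min hex hj ⟨w, hw, hwN⟩
  have hvd : IsDist M N J m v := ⟨hv, fun j hj hjv => hmin j hj v hjv hvN⟩
  obtain ⟨p, hpm, hpd, hpa⟩ := exists_path M N J m v hvd
  have hp0 : p 0 ∈ Src M J := (hpd 0 (Nat.zero_le _)).1
  have hpar : ∀ k ≤ m, (p k ∈ J ↔ k % 2 = 1) := by
    intro k
    induction k with
    | zero =>
      intro _
      simpa using not_mem_of_mem_Src hM hp0
    | succ k ih =>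
      intro hk
      have ih' := ih (Nat.le_of_succ_le hk)
      rcases hpa k hk with ⟨h1, h2, -⟩ | ⟨h1, h2, -⟩
      · have h3 := ih'.mp h1
        constructor
        · intro h4
          exact absurd h4 h2
        · intro h4
          omega
      · have h3 : k % 2 ≠ 1 := fun h4 => h1 (ih'.mpr h4)
        constructor
        · intro _
          omega
        · intro _
          exact h2
  have hmeven : m % 2 = 0 := by
    have h1 : p m ∉ J := by
      rw [hpm]
      exact not_mem_of_mem_Src hN hvN
    have h2 := (hpar m le_rfl).not.mp h1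
    omega
  obtain ⟨t, ht⟩ : ∃ t, m = 2 * t := ⟨m / 2, by omega⟩
  have hgM : ∀ k ≤ m, p k ∈ M.E := fun k hk => (hpd k hk).1.mem_ground hM
  have hgN : ∀ k ≤ m, p k ∈ N.E := fun k hk => hE ▸ hgM k hk
  have heven : ∀ i ≤ t, p (2 * i) ∉ J := by
    intro i hi h1
    have := (hpar (2 * i) (by omega)).mp h1
    omega
  have hodd : ∀ i < t, p (2 * i + 1) ∈ J := by
    intro i hi
    exact (hpar (2 * i + 1) (by omega)).mpr (by omega)
  have hinj : ∀ a ≤ m, ∀ b ≤ m, p a = p b → a = b := by
    intro a ha b hb hab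
    have h1 := hpd a ha
    rw [hab] at h1
    exact h1.unique (hpd b hb)
  set z : ℕ → α := fun i => p (2 * i) with hz
  set y : ℕ → α := fun i => p (2 * i + 1) with hy
  -- independence in `N`
  have hNind : N.Indep ((J \ y '' Iio t) ∪ z '' Iio (t + 1)) := by
    apply aug_indep N hN t z y
    · intro i hi
      exact hgN _ (by omega)
    · have : z t = v := by
        simp only [hz]
        rw [← ht, hpm]
      rw [this]
      exact hvN.2
    · intro i hi
      rcases hpa (2 * i) (by omega) with ⟨h1, -⟩ | ⟨-, -, -, h4⟩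
      · exact absurd h1 (heven i hi.le)
      · exact h4
    · intro i hi b hb
      by_contra hc
      have harc : Arc M N J (p (2 * b)) (p (2 * i + 1)) :=
        Or.inr ⟨heven b (by omega), hodd i hi, hgN _ (by omega), hc⟩
      have := (hpd (2 * b) (by omega)).le_succ (hpd (2 * i + 1) (by omega)) harc
      omega
    · intro b hb
      by_contra hc
      exact hmin (2 * b) (by omega) _ (hpd (2 * b) (by omega)).1 ⟨hgN _ (by omega), hc⟩
  -- independence in `M`, reversed order
  set z' : ℕ → α := fun i => p (2 * (t - i)) with hz'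
  set y' : ℕ → α := fun i => p (2 * (t - i) - 1) with hy'
  have hMind' : M.Indep ((J \ y' '' Iio t) ∪ z' '' Iio (t + 1)) := by
    apply aug_indep M hM t z' y'
    · intro i hi
      exact hgM _ (by omega)
    · have : z' t = p 0 := by
        simp only [hz']
        congr 1
        omega
      rw [this]
      exact hp0.2
    · intro i hi
      have h0 : 2 * (t - i) - 1 + 1 = 2 * (t - i) := by omega
      have harc := hpa (2 * (t - i) - 1) (by omega)
      rw [h0] at harc
      rcases harc with ⟨-, -, -, h4⟩ | ⟨-, h2, -⟩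
      · exact h4
      · exact absurd h2 (heven (t - i) (by omega))
    · intro i hi b hb
      by_contra hc
      have h1 : p (2 * (t - i) - 1) ∈ J := by
        have := hodd (t - i - 1) (by omega)
        have e : 2 * (t - i - 1) + 1 = 2 * (t - i) - 1 := by omega
        rwa [e] at this
      have harc : Arc M N J (p (2 * (t - i) - 1)) (p (2 * (t - b))) :=
        Or.inl ⟨h1, heven (t - b) (by omega), hgM _ (by omega), hc⟩
      have := (hpd (2 * (t - i) - 1) (by omega)).le_succ (hpd (2 * (t - b)) (by omega)) harc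
      omega
    · intro b hb
      by_contra hc
      have h1 : Reach M N J 0 (p (2 * (t - b))) := ⟨hgM _ (by omega), hc⟩
      exact (hpd (2 * (t - b)) (by omega)).2 0 (by omega) h1
  have hyy : y' '' Iio t = y '' Iio t := by
    ext e
    simp only [mem_image, mem_Iio, hy, hy']
    constructor
    · rintro ⟨i, hi, rfl⟩
      exact ⟨t - i - 1, by omega, by congr 1; omega⟩
    · rintro ⟨i, hi, rfl⟩
      exact ⟨t - i - 1, by omega, by congr 1; omega⟩
  have hzz : z' '' Iio (t + 1) = z '' Iio (t + 1) := by
    ext e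
    simp only [mem_image, mem_Iio, hz, hz']
    constructor
    · rintro ⟨i, hi, rfl⟩
      exact ⟨t - i, by omega, rfl⟩
    · rintro ⟨i, hi, rfl⟩
      exact ⟨t - i, by omega, by congr 1; omega⟩
  rw [hyy, hzz] at hMind'
  -- cardinality
  have hYsub : y '' Iio t ⊆ J := by
    rintro _ ⟨i, hi, rfl⟩
    exact hodd i hi
  have hZdisj : Disjoint J (z '' Iio (t + 1)) := by
    rw [Set.disjoint_left]
    rintro _ he ⟨i, hi, rfl⟩
    exact heven i (Nat.lt_succ_iff.mp hi) he
  have hYcard : (y '' Iio t).encard = t := by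
    rw [InjOn.encard_image]
    · exact Nat.encard_range t
    · intro a ha b hb hab
      have := hinj _ (by have := mem_Iio.mp ha; omega) _ (by have := mem_Iio.mp hb; omega) hab
      omega
  have hZcard : (z '' Iio (t + 1)).encard = t + 1 := by
    rw [InjOn.encard_image]
    · exact_mod_cast Nat.encard_range (t + 1)
    · intro a ha b hb hab
      have := hinj _ (by have := mem_Iio.mp ha; omega) _ (by have := mem_Iio.mp hb; omega) hab
      omega
  exact ⟨_, _, t, hYsub, hZdisj, hYcard, hZcard, hMind', hNind⟩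

/-- Counting: after an augmentation the number of elements missing to a base drops. -/
theorem defect_drop {M : Matroid α} {B B' J Y Z : Set α} {t : ℕ} (hB : M.IsBase B)
    (hB' : M.IsBase B') (hZ : Disjoint J Z) (hYc : Y.encard = t)
    (hZc : Z.encard = t + 1) (hJB' : (J \ Y) ∪ Z ⊆ B') :
    (B' \ ((J \ Y) ∪ Z)).encard + 1 ≤ (B \ J).encard := by
  set D' : Set α := B' \ ((J \ Y) ∪ Z) with hD'
  have h1 : D' ∪ Z ⊆ (B' \ B) ∪ (Y ∩ B') ∪ ((B \ J) ∩ B') := by
    intro e he
    have heB' : e ∈ B' := by
      rcases he with he | he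
      · exact he.1
      · exact hJB' (Or.inr he)
    by_cases heB : e ∈ B
    · by_cases heJ : e ∈ J
      · left; right
        refine ⟨?_, heB'⟩
        rcases he with he | he
        · by_contra heY
          exact he.2 (Or.inl ⟨heJ, heY⟩)
        · exact absurd he (Set.disjoint_left.mp hZ heJ)
      · right
        exact ⟨⟨heB, heJ⟩, heB'⟩
    · left; left
      exact ⟨heB', heB⟩
  have h2 : Disjoint D' Z := by
    rw [Set.disjoint_left]
    intro e he heZ
    exact he.2 (Or.inr heZ)
  have h4 : B \ B' ⊆ (Y \ B') ∪ ((B \ J) \ B') := by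
    intro e he
    by_cases heJ : e ∈ J
    · left
      refine ⟨?_, he.2⟩
      by_contra heY
      exact he.2 (hJB' (Or.inl ⟨heJ, heY⟩))
    · right
      exact ⟨⟨he.1, heJ⟩, he.2⟩
  have h3 : D'.encard + Z.encard ≤
      (B' \ B).encard + (Y ∩ B').encard + ((B \ J) ∩ B').encard := by
    rw [← encard_union_eq h2]
    refine (encard_le_encard h1).trans ((encard_union_le _ _).trans ?_)
    gcongr
    exact encard_union_le _ _
  have h5 : (B' \ B).encard ≤ (Y \ B').encard + ((B \ J) \ B').encard := by
    rw [hB'.encard_sdiff_comm hB]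
    exact (encard_le_encard h4).trans (encard_union_le _ _)
  have h6 : D'.encard + Z.encard ≤ Y.encard + (B \ J).encard := by
    calc D'.encard + Z.encard
        ≤ (B' \ B).encard + (Y ∩ B').encard + ((B \ J) ∩ B').encard := h3
      _ ≤ ((Y \ B').encard + ((B \ J) \ B').encard) + (Y ∩ B').encard +
            ((B \ J) ∩ B').encard := by gcongr
      _ = ((Y \ B').encard + (Y ∩ B').encard) +
            (((B \ J) \ B').encard + ((B \ J) ∩ B').encard) := by ring
      _ = Y.encard + (B \ J).encard := by
          rw [encard_sdiff_add_encard_inter, encard_sdiff_add_encard_inter]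
  rw [hYc, hZc] at h6
  have h7 : (t : ℕ∞) + (D'.encard + 1) ≤ (t : ℕ∞) + (B \ J).encard := by
    calc (t : ℕ∞) + (D'.encard + 1) = D'.encard + ((t : ℕ∞) + 1) := by ring
      _ ≤ _ := h6
  exact (ENat.add_le_add_iff_left (ENat.natCast_ne_top t)).mp h7

end Vale.Agent.Lib.P068
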