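import Mathlib
import Vale.Agent.Lib.P068.Aug

/-!
# P068: matroid intersection for pairs with a finite defect
-/

namespace Vale.Agent.Lib.P068

open Set

variable {α : Type*}

/-- The pair `(M, N)` satisfies intersection: some common independent set splits into two parts
whose closures in `M` and in `N` cover the ground set. -/
def SatInt (M N : Matroid α) : Prop :=
  ∃ JM JN : Set α, Disjoint JM JN ∧ M.Indep (JM ∪ JN) ∧ N.Indep (JM ∪ JN) ∧
    M.closure JM ∪ N.closure JN = M.E

theorem SatInt.symm {M N : Matroid α} (hE : M.E = N.E) (h : SatInt M N) : SatInt N M := by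
  obtain ⟨JM, JN, hd, hM, hN, hc⟩ := h
  refine ⟨JN, JM, hd.symm, ?_, ?_, ?_⟩
  · rwa [union_comm]
  · rwa [union_comm]
  · rw [union_comm, hc, hE]

/-- If some base `B` of `M` contains an `N`-independent set `J` with `B \ J` finite, then `(M, N)`
satisfies intersection. -/
theorem satInt_of_defect (M N : Matroid α) (hE : M.E = N.E) :
    ∀ (d : ℕ) (J B : Set α), M.IsBase B → J ⊆ B → N.Indep J → (B \ J).encard ≤ d →
      SatInt M N := by
  intro d
  induction d with
  | zero =>
    intro J B hB hJB hN hd
    have hM : M.Indep J := hB.indep.subset hJB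
    by_cases hpath : ∃ n v, Reach M N J n v ∧ v ∈ Src N J
    · obtain ⟨Y, Z, t, -, hZ, hYc, hZc, hM', -⟩ := exists_augment M N hE hM hN hpath
      obtain ⟨B', hB', hJB'⟩ := hM'.exists_isBase_superset
      have h1 := defect_drop hB hB' hZ hYc hZc hJB'
      have h2 : (1 : ℕ∞) ≤ 0 := by
        calc (1 : ℕ∞) ≤ (B' \ ((J \ Y) ∪ Z)).encard + 1 := le_add_self
          _ ≤ (B \ J).encard := h1
          _ ≤ 0 := by simpa using hd
      exact absurd h2 (by simp)
    · have hno : ∀ n v, Reach M N J n v → v ∉ Src N J :=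
        fun n v hr hs => hpath ⟨n, v, hr, hs⟩
      refine ⟨_, _, ?_, ?_, ?_, cover_of_no_path M N hE hM hN hno⟩
      · exact disjoint_sdiff_inter
      · rwa [sdiff_union_inter]
      · rwa [sdiff_union_inter]
  | succ d ih =>
    intro J B hB hJB hN hd
    have hM : M.Indep J := hB.indep.subset hJB
    by_cases hpath : ∃ n v, Reach M N J n v ∧ v ∈ Src N J
    · obtain ⟨Y, Z, t, -, hZ, hYc, hZc, hM', hN'⟩ := exists_augment M N hE hM hN hpath
      obtain ⟨B', hB', hJB'⟩ := hM'.exists_isBase_superset
      have h1 := defect_drop hB hB' hZ hYc hZc hJB'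
      refine ih _ B' hB' hJB' hN' ?_
      have h2 : (B' \ ((J \ Y) ∪ Z)).encard + 1 ≤ (d : ℕ∞) + 1 := by
        refine h1.trans ?_
        exact_mod_cast hd
      exact (ENat.add_le_add_iff_right (by simp)).mp h2
    · have hno : ∀ n v, Reach M N J n v → v ∉ Src N J :=
        fun n v hr hs => hpath ⟨n, v, hr, hs⟩
      refine ⟨_, _, ?_, ?_, ?_, cover_of_no_path M N hE hM hN hno⟩
      · exact disjoint_sdiff_inter
      · rwa [sdiff_union_inter]
      · rwa [sdiff_union_inter]

/-- Finite defect criterion. -/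
theorem satInt_of_finite_defect (M N : Matroid α) (hE : M.E = N.E) {J B : Set α}
    (hB : M.IsBase B) (hJB : J ⊆ B) (hN : N.Indep J) (hfin : (B \ J).Finite) : SatInt M N := by
  refine satInt_of_defect M N hE (B \ J).ncard J B hB hJB hN ?_
  rw [hfin.cast_ncard_eq]

/-- An arbitrary matroid paired with a matroid of finite rank. -/
theorem satInt_of_rankFinite (M N : Matroid α) (hE : M.E = N.E) [N.RankFinite] : SatInt M N := by
  obtain ⟨B, hB⟩ := N.exists_isBase
  apply SatInt.symm hE.symm
  refine satInt_of_finite_defect N M hE.symm hB (empty_subset B) M.empty_indep ?_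
  simpa using hB.finite

/-- An arbitrary matroid paired with a matroid of finite corank. -/
theorem satInt_of_dual_rankFinite (M N : Matroid α) (hE : M.E = N.E) [N✶.RankFinite] :
    SatInt M N := by
  obtain ⟨BN, hBN⟩ := N.exists_isBase
  have hco : (N.E \ BN).Finite := hBN.compl_isBase_dual.finite
  have hsub : BN ⊆ M.E := hE ▸ hBN.subset_ground
  obtain ⟨J, hJ⟩ := M.exists_isBasis BN hsub
  obtain ⟨B, hB, hJB⟩ := hJ.indep.exists_isBase_superset
  refine satInt_of_finite_defect M N hE hB hJB (hBN.indep.subset hJ.subset) ?_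
  refine hco.subset ?_
  intro e he
  refine ⟨hE ▸ hB.subset_ground he.1, fun heBN => he.2 ?_⟩
  exact hJ.mem_of_insert_indep heBN (hB.indep.subset (insert_subset he.1 hJB))

end Vale.Agent.Lib.P068
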